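import Vale.Agent.P032.S5.H225.Germ
import Vale.Agent.P032.S5.H94.Side

/-!
# P032: the special ends of type beta (row XD2, L2)

`z` a point with `DPt T z a b c d` and `Only T z a b c d`, `v` a point of `S(z)` which is a two-pair
centre (with any names of its pairs) and whose palette is `{a, b, x, g}` with `x` in `{c, d}` and `g`
not in `T z`.  Then the pairs of `v` are `a x | b g` or `b x | a g`; `S(z)` is an exact `ab`-arc on one
side of `v`, and `T ⊆ {x, g}`, `g ∈ T` on the other side.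
-/

open Set Filter Topology Metric

noncomputable section

namespace Vale.Agent.P032.Six

variable {k : ℕ} {U : Fin k → Set ℂ} {T : ℂ → Set (Fin k)}

/-- one of the names of a two-pair centre can be put in the first place -/
theorem DPt.first_649 {v : ℂ} {a p q r s : Fin k} (hv : DPt T v p q r s) (ha : a ∈ T v) :
    ∃ q' r' s', DPt T v a q' r' s' := by
  rw [hv.pal] at ha
  simp only [mem_insert_iff, mem_singleton_iff] at ha
  rcases ha with h | h | h | h
  · exact ⟨q, r, s, h ▸ hv⟩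
  · exact ⟨p, r, s, h ▸ hv.swap12⟩
  · exact ⟨s, p, q, h ▸ hv.swap⟩
  · exact ⟨r, p, q, h ▸ hv.swap.swap12⟩

/-- the three pairings of a palette of four colours -/
theorem DPt.three_649 {v : ℂ} {a b x g p q r s : Fin k} (hv : DPt T v p q r s)
    (hT : T v = {a, b, x, g}) : DPt T v a b x g ∨ DPt T v a x b g ∨ DPt T v b x a g := by
  obtain ⟨q, r, s, hv⟩ := hv.first_649 (a := a) (by rw [hT]; simp)
  have hq : q ∈ ({a, b, x, g} : Set (Fin k)) := by rw [← hT, hv.pal]; simp
  have hr : r ∈ ({a, b, x, g} : Set (Fin k)) := by rw [← hT, hv.pal]; simp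
  have hs : s ∈ ({a, b, x, g} : Set (Fin k)) := by rw [← hT, hv.pal]; simp
  simp only [mem_insert_iff, mem_singleton_iff] at hq hr hs
  have n1 := hv.ab
  have n2 := hv.ac
  have n3 := hv.ad
  have n4 := hv.bc
  have n5 := hv.bd
  have n6 := hv.cd
  rcases hq with hq | hq | hq | hq
  · exact absurd hq.symm n1
  · subst hq
    rcases hr with hr | hr | hr | hr
    · exact absurd hr.symm n2
    · exact absurd hr.symm n4
    · subst hr
      rcases hs with hs | hs | hs | hs
      · exact absurd hs.symm n3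
      · exact absurd hs.symm n5
      · exact absurd hs.symm n6
      · subst hs; exact Or.inl hv
    · subst hr
      rcases hs with hs | hs | hs | hs
      · exact absurd hs.symm n3
      · exact absurd hs.symm n5
      · subst hs; exact Or.inl hv.swap34
      · exact absurd hs.symm n6
  · subst hq
    rcases hr with hr | hr | hr | hr
    · exact absurd hr.symm n2
    · subst hr
      rcases hs with hs | hs | hs | hs
      · exact absurd hs.symm n3
      · exact absurd hs.symm n6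
      · exact absurd hs.symm n5
      · subst hs; exact Or.inr (Or.inl hv)
    · exact absurd hr.symm n4
    · subst hr
      rcases hs with hs | hs | hs | hs
      · exact absurd hs.symm n3
      · subst hs; exact Or.inr (Or.inl hv.swap34)
      · exact absurd hs.symm n5
      · exact absurd hs.symm n6
  · subst hq
    rcases hr with hr | hr | hr | hr
    · exact absurd hr.symm n2
    · subst hr
      rcases hs with hs | hs | hs | hs
      · exact absurd hs.symm n3
      · exact absurd hs.symm n6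
      · subst hs; exact Or.inr (Or.inr hv.swap)
      · exact absurd hs.symm n5
    · subst hr
      rcases hs with hs | hs | hs | hs
      · exact absurd hs.symm n3
      · subst hs; exact Or.inr (Or.inr hv.swap.swap12)
      · exact absurd hs.symm n6
      · exact absurd hs.symm n5
    · exact absurd hr.symm n4

/-- the germ of type beta on `S(z)` at `v`: exact `ab` on the half branch `τ`, `T ⊆ {x, g}` and
`g ∈ T` on the other one -/
def BetaGerm (T : ℂ → Set (Fin k)) (z v : ℂ) (a b x g : Fin k) (τ : ℝ) : Prop :=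
  (∀ᶠ t : ℝ in 𝓝[>] 0, T (hb z v τ t) = {a, b}) ∧
    ∀ᶠ t : ℝ in 𝓝[>] 0, T (hb z v (-τ) t) ⊆ {x, g} ∧ g ∈ T (hb z v (-τ) t)

theorem BetaGerm.swap12 {z v : ℂ} {a b x g : Fin k} {τ : ℝ} (h : BetaGerm T z v a b x g τ) :
    BetaGerm T z v b a x g τ := by
  refine ⟨?_, h.2⟩
  have := h.1
  rwa [pair_comm] at this

/-- **(L2), the list of the special ends of type beta.**  `v ∈ S(z)` a two-pair centre with palette
`{a, b, x, g}`, `x ∈ {c, d}`. -/
theorem Irr.list_beta (h : Irr U T) {z v : ℂ} {a b c d x g : Fin k} (hz : DPt T z a b c d)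
    (hO : Only T z a b c d) (hzv : dist v z = 1) (hx : x = c ∨ x = d)
    (hT : T v = {a, b, x, g}) (hv : ∃ p q r s, DPt T v p q r s) :
    (DPt T v a x b g ∨ DPt T v b x a g) ∧
      ∃ τ : ℝ, (τ = 1 ∨ τ = -1) ∧ BetaGerm T z v a b x g τ := by
  have ha : a ∈ T z := by rw [hz.pal]; simp
  have hb' : b ∈ T z := by rw [hz.pal]; simp
  have hc : c ∈ T z := by rw [hz.pal]; simp
  have hd : d ∈ T z := by rw [hz.pal]; simp
  obtain ⟨p, q, r, s, hv⟩ := hv
  -- `x` plays the role of `c`
  obtain ⟨x', hO', hxT⟩ : ∃ x', Only T z a b x x' ∧ x ∈ T z := by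
    rcases hx with rfl | rfl
    · exact ⟨d, hO, hc⟩
    · exact ⟨c, hO.swap34, hd⟩
  rcases hv.three_649 hT with h1 | h1 | h1
  · exact (h.germ_beta_same hO' ha hb' hxT h1 hzv).elim
  · obtain ⟨τ, hτ, e1, e2⟩ := h.germ_beta hO' ha hb' hxT h1 hzv
    exact ⟨Or.inl h1, τ, hτ, e1, e2⟩
  · obtain ⟨τ, hτ, e1, e2⟩ := h.germ_beta hO'.swap12 hb' ha hxT h1 hzv
    exact ⟨Or.inr h1, τ, hτ, (BetaGerm.swap12 (a := b) (b := a) ⟨e1, e2⟩)⟩

/-- the two half branches of `S(z)` at `v` cover a neighbourhood of `v` in `S(z)` -/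
theorem ev_branches_649 {z v : ℂ} (hzv : dist v z = 1) {P : ℂ → Prop}
    (h1 : ∀ᶠ t : ℝ in 𝓝[>] 0, P (hb z v 1 t)) (h2 : ∀ᶠ t : ℝ in 𝓝[>] 0, P (hb z v (-1) t)) :
    ∀ᶠ q in 𝓝[sphere z 1] v, q ≠ v → P q := by
  obtain ⟨ε, hε, hP⟩ := mem_nhdsGT_iff_exists_Ioo_subset.1 (h1.and h2)
  rw [eventually_nhdsWithin_iff]
  filter_upwards [ev_sphere hzv (show (0 : ℝ) < ε from hε)] with q hq hqs hne
  obtain ⟨s, hs, rfl⟩ := hq hqs
  obtain ⟨s1, s2⟩ := abs_lt.1 hs
  rcases lt_trichotomy s 0 with h0 | h0 | h0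
  · have h3 := (hP ⟨neg_pos.2 h0, by linarith⟩ : _ ∧ _).2
    have e : hb z v (-1) (-s) = z + (v - z) * cis s := by rw [hb, neg_one_mul, neg_neg]
    rwa [e] at h3
  · exfalso
    apply hne
    rw [h0]
    simp [cis]
  · have h3 := (hP ⟨h0, s2⟩ : _ ∧ _).1
    have e : hb z v 1 s = z + (v - z) * cis s := by rw [hb, one_mul]
    rwa [e] at h3

/-- a half branch is contained in the circle -/
theorem tendsto_hb_sphere_649 {z v : ℂ} (hzv : dist v z = 1) (τ : ℝ) :
    Tendsto (hb z v τ) (𝓝[>] 0) (𝓝[sphere z 1] v) :=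
  tendsto_nhdsWithin_iff.2 ⟨tendsto_hb z v τ, Eventually.of_forall fun t => dist_hb hzv τ t⟩

/-- both sides of the end, in one statement on the circle -/
theorem BetaGerm.near {z v : ℂ} {a b x g : Fin k} {τ : ℝ} (hzv : dist v z = 1)
    (hτ : τ = 1 ∨ τ = -1) (h : BetaGerm T z v a b x g τ) :
    ∀ᶠ q in 𝓝[sphere z 1] v, q ≠ v → T q = {a, b} ∨ (T q ⊆ {x, g} ∧ g ∈ T q) := by
  have e1 : ∀ᶠ t : ℝ in 𝓝[>] 0, T (hb z v τ t) = {a, b} ∨
      (T (hb z v τ t) ⊆ {x, g} ∧ g ∈ T (hb z v τ t)) := h.1.mono fun t ht => Or.inl ht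
  have e2 : ∀ᶠ t : ℝ in 𝓝[>] 0, T (hb z v (-τ) t) = {a, b} ∨
      (T (hb z v (-τ) t) ⊆ {x, g} ∧ g ∈ T (hb z v (-τ) t)) := h.2.mono fun t ht => Or.inr ht
  rcases hτ with rfl | rfl
  · exact ev_branches_649 hzv e1 e2
  · rw [neg_neg] at e2
    exact ev_branches_649 hzv e2 e1

/-- `v` is a limit of points of the circle with palette `{a, b}` -/
theorem BetaGerm.acc {z v : ℂ} {a b x g : Fin k} {τ : ℝ} (hzv : dist v z = 1)
    (h : BetaGerm T z v a b x g τ) : ∃ᶠ q in 𝓝[sphere z 1] v, T q = {a, b} :=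
  (tendsto_hb_sphere_649 hzv τ).frequently h.1.frequently

/-- `v` is a limit of points of the circle with a palette contained in `{x, g}` which contains `g` -/
theorem BetaGerm.acc' {z v : ℂ} {a b x g : Fin k} {τ : ℝ} (hzv : dist v z = 1)
    (h : BetaGerm T z v a b x g τ) :
    ∃ᶠ q in 𝓝[sphere z 1] v, T q ⊆ {x, g} ∧ g ∈ T q :=
  (tendsto_hb_sphere_649 hzv (-τ)).frequently h.2.frequently

end Vale.Agent.P032.Six
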